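import Vale.Agent.Lib.P345.Stage

/-!
# P345: the single-fold and finite-fold conjectures reduce to primitive recursive sets
-/

namespace Vale.Agent.Results.P345.PrimrecReduction

open Vale.Agent.P345

/-- Both the single-fold conjecture and the finite-fold conjecture (for all recursively enumerable
sets) are equivalent to their restrictions to primitive recursive sets. -/
theorem result :
    ((∀ (n : ℕ) (S : Set (Fin n → ℕ)), REPred (fun a => a ∈ S) → HasSingleFoldRep S) ↔
      (∀ (n : ℕ) (S : Set (Fin n → ℕ)), PrimrecPred (fun a => a ∈ S) → HasSingleFoldRep S)) ∧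
    ((∀ (n : ℕ) (S : Set (Fin n → ℕ)), REPred (fun a => a ∈ S) → HasFiniteFoldRep S) ↔
      (∀ (n : ℕ) (S : Set (Fin n → ℕ)), PrimrecPred (fun a => a ∈ S) → HasFiniteFoldRep S)) := by
  refine ⟨⟨fun h n S hS => h n S hS.computablePred.to_re, fun h n S hS => ?_⟩,
    ⟨fun h n S hS => h n S hS.computablePred.to_re, fun h n S hS => ?_⟩⟩
  · obtain ⟨T, hT, hfib, rfl⟩ := exists_primrec_cover hS
    obtain ⟨m, P, hP, hs⟩ := h (n + 1) T hT
    exact ⟨m + 1, _, isRep_proj hP, isSingleFold_proj hP hs hfib⟩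
  · obtain ⟨T, hT, hfib, rfl⟩ := exists_primrec_cover hS
    obtain ⟨m, P, hP, hs⟩ := h (n + 1) T hT
    exact ⟨m + 1, _, isRep_proj hP, isFiniteFold_proj hP hs (fun a => (hfib a).finite)⟩

end Vale.Agent.Results.P345.PrimrecReduction
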